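import Vale.Agent.Lib.P069.NoAuc

/-!
# A reflexive Banach space with an AMUC norm and no equivalent AUC norm

This answers question Q1 of problem P069 in the negative.  The space is the dual of the
James tree space over a rooted, infinitely branching tree with no infinite branch and with
arbitrarily long finite branches; see the files in `Vale/Agent/Lib/P069`.
-/

open Vale.Agent.Lib.P069 in
/-- There is an infinite-dimensional reflexive real Banach space whose norm is asymptotically
midpoint uniformly convex and which has no equivalent asymptotically uniformly convex norm. -/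
theorem Vale.Agent.Results.P069.ReflexiveAmucNotAuc.result :
    ∃ (X : Type) (_ : NormedAddCommGroup X) (_ : NormedSpace ℝ X) (_ : CompleteSpace X),
      ¬ FiniteDimensional ℝ X ∧
      Function.Surjective (NormedSpace.inclusionInDoubleDual ℝ X) ∧
      IsAMUC (fun x : X => ‖x‖) ∧
      ∀ N : Seminorm ℝ X, (∃ K : ℝ, 0 < K ∧ ∀ x, ‖x‖ ≤ K * N x ∧ N x ≤ K * ‖x‖) →
        ¬ IsAUC (fun x => N x) := by
  have hno : ∀ N : Seminorm ℝ (StrongDual ℝ (Node →₀ ℝ)),
      (∃ K : ℝ, 0 < K ∧ ∀ x, ‖x‖ ≤ K * N x ∧ N x ≤ K * ‖x‖) → ¬ IsAUC (fun x => N x) := by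
    rintro N ⟨K, hK, hN⟩
    exact no_auc N hK hN
  refine ⟨StrongDual ℝ (Node →₀ ℝ), inferInstance, inferInstance, inferInstance, ?_,
    reflexive_X, amuc, hno⟩
  intro hfd
  refine hno (normSeminorm ℝ _) ⟨1, one_pos, fun x => by simp⟩ ?_
  intro t _
  refine ⟨1, one_pos, fun x _ => ⟨⊥, ⟨?_, inferInstance⟩, ?_⟩⟩
  · exact Submodule.closed_of_finiteDimensional _
  · intro y hy hy1
    rw [Submodule.mem_bot] at hy
    subst hy
    simp at hy1
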